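import Vale.Agent.P298.H475.Sq

/-!
P298, block KUM (helper475): the root-sum integral over the square cover.
-/

namespace Vale.Agent.P298.H475

open Filter Topology Metric MeasureTheory Set Vale.Agent.P298 Vale.Agent.P298.H379
open scoped ENNReal NNReal

/-- the square cover of `ℂ³` -/
def sq3 (a : Fin 3 → ℂ) (X : Fin 3 → ℂ) : Fin 3 → ℂ := fun i => a i + X i ^ 2

lemma sq3_pt (a : Fin 3 → ℂ) (P : ℂ × ℂ) (Z : ℂ) :
    sq3 a (pt P Z) = pt (sqm (a 0) (a 1) P) (a 2 + Z ^ 2) := by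
  funext i
  fin_cases i <;> simp [sq3, pt, sqm]

lemma hasFDerivAt_sq3 (a X : Fin 3 → ℂ) : HasFDerivAt (𝕜 := ℂ) (sq3 a)
    (ContinuousLinearMap.pi fun i => (2 * X i) • ContinuousLinearMap.proj (R := ℂ) i) X := by
  rw [hasFDerivAt_pi]
  intro i
  have h := (hasFDerivAt_apply (𝕜 := ℂ) i X).pow 2
  have h2 := h.const_add (a i)
  simp only [Nat.add_one_sub_one, pow_one, nsmul_eq_mul, Nat.cast_ofNat] at h2
  exact h2

lemma pd_sq3 {f : (Fin 3 → ℂ) → ℂ} (hf : Differentiable ℂ f) (a X : Fin 3 → ℂ) (i : Fin 3) :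
    pd i (fun X => f (sq3 a X)) X = 2 * X i * pd i f (sq3 a X) := by
  have h := (hf (sq3 a X)).hasFDerivAt.comp X (hasFDerivAt_sq3 a X)
  have h2 : fderiv ℂ (fun X => f (sq3 a X)) X = _ := h.fderiv
  unfold pd
  rw [h2]
  have h3 : (ContinuousLinearMap.pi fun i => (2 * X i) • ContinuousLinearMap.proj (R := ℂ)
      (φ := fun _ : Fin 3 => ℂ) i) (Pi.single i 1) = (2 * X i) • (Pi.single i 1 : Fin 3 → ℂ) := by
    funext j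
    by_cases hj : j = i
    · subst hj
      simp
    · simp [Pi.single_eq_of_ne hj]
  rw [ContinuousLinearMap.comp_apply, h3, map_smul, smul_eq_mul]

/-- the root sum without the root `z₀` -/
noncomputable def rootSum' (f : (Fin 3 → ℂ) → ℂ) (s : ℂ) (z₀ : ℂ) (φ : (Fin 3 → ℂ) → ℝ≥0∞)
    (p : ℂ × ℂ) : ℝ≥0∞ :=
  ∑' z : (Rts f s p \ {z₀} : Set ℂ), φ (pt p z) / ‖pd 2 f (pt p z)‖ₑ ^ 2

lemma rootSum'_eq {f : (Fin 3 → ℂ) → ℂ} {s z₀ : ℂ} {φ : (Fin 3 → ℂ) → ℝ≥0∞} {p : ℂ × ℂ}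
    (h : f (pt p z₀) ≠ s) : rootSum' f s z₀ φ p = rootSum f s φ p := by
  have h1 : (Rts f s p \ {z₀} : Set ℂ) = Rts f s p := by
    ext z
    constructor
    · exact fun h => h.1
    · intro hz
      refine ⟨hz, fun h2 => ?_⟩
      rw [mem_singleton_iff] at h2
      rw [h2] at hz
      exact h hz.1
  unfold rootSum' rootSum
  rw [h1]

/-- a square root -/
noncomputable def srt (z : ℂ) : ℂ := z ^ (1 / 2 : ℂ)

lemma srt_sq (z : ℂ) : srt z ^ 2 = z := by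
  unfold srt
  rw [← Complex.cpow_nat_mul]; simp

lemma mem_Rts_cov {f : (Fin 3 → ℂ) → ℂ} (hf : Differentiable ℂ f) (a : Fin 3 → ℂ) (s : ℂ)
    (P : ℂ × ℂ) (Z : ℂ) : Z ∈ Rts (fun X => f (sq3 a X)) s P ↔
      a 2 + Z ^ 2 ∈ (Rts f s (sqm (a 0) (a 1) P) \ {a 2} : Set ℂ) := by
  unfold Rts
  simp only [Set.mem_sdiff, mem_singleton_iff, mem_ofPred_eq]
  rw [pd_sq3 hf, sq3_pt]
  have h2 : pt P Z 2 = Z := by simp [pt]
  rw [h2]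
  constructor
  · rintro ⟨h, h'⟩
    refine ⟨⟨h, fun h0 => h' (by rw [h0, mul_zero])⟩, fun h0 => h' ?_⟩
    have : Z = 0 := by simpa using h0
    rw [this]; simp
  · rintro ⟨⟨h, h'⟩, h''⟩
    refine ⟨h, mul_ne_zero (mul_ne_zero two_ne_zero fun h0 => h'' ?_) h'⟩
    rw [h0]; simp

/-- the two preimages of a root -/
noncomputable def covEquiv {f : (Fin 3 → ℂ) → ℂ} (hf : Differentiable ℂ f) (a : Fin 3 → ℂ) (s : ℂ)
    (P : ℂ × ℂ) : (Rts f s (sqm (a 0) (a 1) P) \ {a 2} : Set ℂ) × Bool ≃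
      Rts (fun X => f (sq3 a X)) s P := by
  refine Equiv.ofBijective (fun q => ⟨bif q.2 then srt (q.1 - a 2) else -srt (q.1 - a 2), ?_⟩)
    ⟨?_, ?_⟩
  · rw [mem_Rts_cov hf]
    have : a 2 + (bif q.2 then srt (q.1 - a 2) else -srt (q.1 - a 2)) ^ 2 = q.1 := by
      rcases q with ⟨z, b⟩
      cases b <;> simp [srt_sq]
    rw [this]
    exact q.1.2
  · rintro ⟨⟨z, hz⟩, b⟩ ⟨⟨w, hw⟩, b'⟩ h
    simp only [Subtype.mk.injEq] at h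
    have h1 : z = w := by
      have : (bif b then srt (z - a 2) else -srt (z - a 2)) ^ 2 =
          (bif b' then srt (w - a 2) else -srt (w - a 2)) ^ 2 := by rw [h]
      cases b <;> cases b' <;> simpa [srt_sq] using this
    subst h1
    have h2 : srt (z - a 2) ≠ 0 := by
      intro h0
      have h3 := srt_sq (z - a 2)
      rw [h0] at h3
      apply hz.2
      rw [mem_singleton_iff]
      have : z - a 2 = 0 := by rw [← h3]; simp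
      exact sub_eq_zero.1 this
    cases b <;> cases b'
    · rfl
    · exfalso
      simp only [cond_false, cond_true] at h
      exact h2 (neg_eq_self.1 h)
    · exfalso
      simp only [cond_false, cond_true] at h
      exact h2 (self_eq_neg.1 h)
    · rfl
  · rintro ⟨Z, hZ⟩
    have hZ' := (mem_Rts_cov hf a s P Z).1 hZ
    have h1 : srt (a 2 + Z ^ 2 - a 2) ^ 2 = Z ^ 2 := by rw [srt_sq]; ring
    rcases sq_eq_sq_iff_eq_or_eq_neg.1 h1 with h | h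
    · exact ⟨⟨⟨_, hZ'⟩, true⟩, by simpa using h⟩
    · refine ⟨⟨⟨_, hZ'⟩, false⟩, ?_⟩
      have h2 : -srt (a 2 + Z ^ 2 - a 2) = Z := by rw [h, neg_neg]
      exact Subtype.ext h2

lemma covEquiv_sq {f : (Fin 3 → ℂ) → ℂ} (hf : Differentiable ℂ f) (a : Fin 3 → ℂ) (s : ℂ)
    (P : ℂ × ℂ) (q : (Rts f s (sqm (a 0) (a 1) P) \ {a 2} : Set ℂ) × Bool) :
    a 2 + (covEquiv hf a s P q : ℂ) ^ 2 = q.1 := by
  have h : (covEquiv hf a s P q : ℂ) =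
      (bif q.2 then srt (q.1 - a 2) else -srt (q.1 - a 2)) := rfl
  rw [h]
  rcases q with ⟨z, b⟩
  cases b <;> simp [srt_sq]

/-- one term -/
lemma term_cov {A u v : ℝ≥0∞} {Z : ℂ} (hZ : Z ≠ 0) (w : ℂ) :
    A * (u * v * ‖Z‖ₑ ^ 2) / ‖2 * Z * w‖ₑ ^ 2 = (u * v) / 4 * (A / ‖w‖ₑ ^ 2) := by
  have h0 : ‖Z‖ₑ ≠ 0 := by simpa using hZ
  have h1 : ‖Z‖ₑ ≠ ⊤ := enorm_ne_top
  have h2 : ‖(2 : ℂ)‖ₑ = 2 := by
    rw [← ofReal_norm]; simp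
  have h4 : ((4 : ℝ≥0∞) * ‖Z‖ₑ ^ 2) ≠ 0 := by simp [h0]
  have h5 : ((4 : ℝ≥0∞) * ‖Z‖ₑ ^ 2) ≠ ⊤ := ENNReal.mul_ne_top (by simp) (ENNReal.pow_ne_top h1)
  rw [enorm_mul, enorm_mul, h2, mul_pow, mul_pow, div_eq_mul_inv, div_eq_mul_inv, div_eq_mul_inv,
    show ((2 : ℝ≥0∞) ^ 2) = 4 by norm_num, ENNReal.mul_inv (Or.inl h4) (Or.inl h5),
    ENNReal.mul_inv (Or.inl (by simp)) (Or.inl (by simp))]
  have h6 : ‖Z‖ₑ ^ 2 * (‖Z‖ₑ ^ 2)⁻¹ = 1 :=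
    ENNReal.mul_inv_cancel (by simp [h0]) (ENNReal.pow_ne_top h1)
  calc A * (u * v * ‖Z‖ₑ ^ 2) * ((4 : ℝ≥0∞)⁻¹ * (‖Z‖ₑ ^ 2)⁻¹ * (‖w‖ₑ ^ 2)⁻¹)
      = (‖Z‖ₑ ^ 2 * (‖Z‖ₑ ^ 2)⁻¹) * (u * v * 4⁻¹ * (A * (‖w‖ₑ ^ 2)⁻¹)) := by ring
    _ = u * v * 4⁻¹ * (A * (‖w‖ₑ ^ 2)⁻¹) := by rw [h6, one_mul]

/-- **the root sum upstairs** -/
lemma rootSum_cov {f : (Fin 3 → ℂ) → ℂ} (hf : Differentiable ℂ f) (a : Fin 3 → ℂ) (s : ℂ)
    (φ : (Fin 3 → ℂ) → ℝ≥0∞) (P : ℂ × ℂ) :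
    rootSum (fun X => f (sq3 a X)) s (fun X => φ (sq3 a X) * ‖X 0 * X 1 * X 2‖ₑ ^ 2) P =
      ‖P.1‖ₑ ^ 2 * ‖P.2‖ₑ ^ 2 / 2 * rootSum' f s (a 2) φ (sqm (a 0) (a 1) P) := by
  unfold rootSum rootSum'
  rw [← (covEquiv hf a s P).tsum_eq]
  have h1 : ∀ q : (Rts f s (sqm (a 0) (a 1) P) \ {a 2} : Set ℂ) × Bool,
      φ (sq3 a (pt P (covEquiv hf a s P q))) *
        ‖pt P (covEquiv hf a s P q) 0 * pt P (covEquiv hf a s P q) 1 *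
          pt P (covEquiv hf a s P q) 2‖ₑ ^ 2 /
        ‖pd 2 (fun X => f (sq3 a X)) (pt P (covEquiv hf a s P q))‖ₑ ^ 2 =
      (‖P.1‖ₑ ^ 2 * ‖P.2‖ₑ ^ 2) / 4 * (φ (pt (sqm (a 0) (a 1) P) q.1) /
        ‖pd 2 f (pt (sqm (a 0) (a 1) P) q.1)‖ₑ ^ 2) := by
    intro q
    have hZ : (covEquiv hf a s P q : ℂ) ≠ 0 := by
      intro h0
      have h2 := covEquiv_sq hf a s P q
      rw [h0] at h2
      exact q.1.2.2 (by rw [mem_singleton_iff, ← h2]; simp)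
    rw [pd_sq3 hf, sq3_pt, covEquiv_sq]
    have e0 : pt P (covEquiv hf a s P q) 0 = P.1 := by simp [pt]
    have e1 : pt P (covEquiv hf a s P q) 1 = P.2 := by simp [pt]
    have e2 : pt P (covEquiv hf a s P q) 2 = covEquiv hf a s P q := by simp [pt]
    rw [e0, e1, e2, enorm_mul, enorm_mul, mul_pow, mul_pow]
    exact term_cov hZ _
  rw [tsum_congr h1, ENNReal.tsum_mul_left,
    ENNReal.tsum_prod (f := fun (z : (Rts f s (sqm (a 0) (a 1) P) \ {a 2} : Set ℂ)) (_ : Bool) =>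
      φ (pt (sqm (a 0) (a 1) P) z) / ‖pd 2 f (pt (sqm (a 0) (a 1) P) z)‖ₑ ^ 2)]
  have h2 : ∀ z : (Rts f s (sqm (a 0) (a 1) P) \ {a 2} : Set ℂ),
      ∑' _ : Bool, (φ (pt (sqm (a 0) (a 1) P) z) /
        ‖pd 2 f (pt (sqm (a 0) (a 1) P) z)‖ₑ ^ 2) =
        2 * (φ (pt (sqm (a 0) (a 1) P) z) / ‖pd 2 f (pt (sqm (a 0) (a 1) P) z)‖ₑ ^ 2) := by
    intro z
    rw [tsum_bool, two_mul]
  rw [tsum_congr h2, ENNReal.tsum_mul_left, ← mul_assoc]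
  congr 1
  rw [ENNReal.div_eq_inv_mul, ENNReal.div_eq_inv_mul]
  have h3 : (4 : ℝ≥0∞)⁻¹ * 2 = 2⁻¹ := by
    rw [show (4 : ℝ≥0∞) = 2 * 2 by norm_num, ENNReal.mul_inv (by simp) (by simp), mul_assoc,
      ENNReal.inv_mul_cancel (by simp) (by simp), mul_one]
  calc (4 : ℝ≥0∞)⁻¹ * (‖P.1‖ₑ ^ 2 * ‖P.2‖ₑ ^ 2) * 2 = ((4 : ℝ≥0∞)⁻¹ * 2) *
      (‖P.1‖ₑ ^ 2 * ‖P.2‖ₑ ^ 2) := by ring
    _ = _ := by rw [h3]

/-- **the integral upstairs** -/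
theorem nu_cov {f : (Fin 3 → ℂ) → ℂ} (hf : Differentiable ℂ f) (a : Fin 3 → ℂ) (s : ℂ)
    (φ : (Fin 3 → ℂ) → ℝ≥0∞) (hn : ∀ᵐ p : ℂ × ℂ, f (pt p (a 2)) ≠ s) :
    nu f s φ =
      8 * nu (fun X => f (sq3 a X)) s (fun X => φ (sq3 a X) * ‖X 0 * X 1 * X 2‖ₑ ^ 2) := by
  unfold nu
  have h1 : ∀ P : ℂ × ℂ, rootSum (fun X => f (sq3 a X)) s
      (fun X => φ (sq3 a X) * ‖X 0 * X 1 * X 2‖ₑ ^ 2) P =
      32⁻¹ * (16 * (‖P.1‖ₑ ^ 2 * ‖P.2‖ₑ ^ 2) *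
        rootSum' f s (a 2) φ (sqm (a 0) (a 1) P)) := by
    intro P
    rw [rootSum_cov hf, ENNReal.div_eq_inv_mul]
    have h3 : (32 : ℝ≥0∞)⁻¹ * 16 = 2⁻¹ := by
      rw [show (32 : ℝ≥0∞) = 2 * 16 by norm_num, ENNReal.mul_inv (by simp) (by simp), mul_assoc,
        ENNReal.inv_mul_cancel (by simp) (by simp), mul_one]
    rw [← h3]
    ring
  rw [lintegral_congr h1, lintegral_const_mul' _ _ (by simp), lintegral_sqm]
  have h2 : ∫⁻ p : ℂ × ℂ, rootSum' f s (a 2) φ p = ∫⁻ p : ℂ × ℂ, rootSum f s φ p := by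
    refine lintegral_congr_ae ?_
    filter_upwards [hn] with p hp
    exact rootSum'_eq hp
  rw [h2, ← mul_assoc, ← mul_assoc]
  have h4 : (8 : ℝ≥0∞) * 32⁻¹ * 4 = 1 := by
    rw [show (32 : ℝ≥0∞) = 8 * 4 by norm_num, ENNReal.mul_inv (by simp) (by simp), ← mul_assoc,
      ENNReal.mul_inv_cancel (by simp) (by simp), one_mul,
      ENNReal.inv_mul_cancel (by simp) (by simp)]
  rw [h4, one_mul]

/-- shifting the level -/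
lemma nu_sub_const (f : (Fin 3 → ℂ) → ℂ) (s : ℂ) (φ : (Fin 3 → ℂ) → ℝ≥0∞) :
    nu (fun x => f x - s) 0 φ = nu f s φ := by
  have h1 : ∀ x, pd 2 (fun x => f x - s) x = pd 2 f x := by
    intro x
    unfold pd
    rw [fderiv_sub_const]
  have h2 : ∀ p, Rts (fun x => f x - s) 0 p = Rts f s p := by
    intro p
    unfold Rts
    ext z
    simp only [mem_ofPred_eq, h1, sub_eq_zero]
  unfold nu rootSum
  simp only [h1]
  refine lintegral_congr fun p => ?_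
  rw [h2 p]

/-- `N_k` upstairs -/
theorem Nk_cov {f : (Fin 3 → ℂ) → ℂ} (hf : Differentiable ℂ f) (a : Fin 3 → ℂ) (s : ℂ)
    (hn : ∀ᵐ p : ℂ × ℂ, f (pt p (a 2)) ≠ s) (h : (Fin 3 → ℂ) → ℂ) {l m : ℕ} (hl : 0 < l)
    (hm : 0 < m) {k : ℝ} (hk : k = m / l) :
    Nk f s k h = 8 * Nk (fun X => f (sq3 a X) - s) 0 m
      (fun X => h (sq3 a X) ^ l * (X 0 * X 1 * X 2) ^ m) := by
  unfold Nk
  rw [nu_cov hf a s _ hn, nu_sub_const (fun X => f (sq3 a X))]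
  congr 2
  funext X
  show ‖h (sq3 a X)‖ₑ ^ (2 / k) * ‖X 0 * X 1 * X 2‖ₑ ^ 2 =
    ‖h (sq3 a X) ^ l * (X 0 * X 1 * X 2) ^ m‖ₑ ^ (2 / (m : ℝ))
  rw [enorm_mul (h (sq3 a X) ^ l), enorm_pow, enorm_pow, ENNReal.mul_rpow_of_nonneg _ _ (by positivity),
    ← ENNReal.rpow_natCast, ← ENNReal.rpow_natCast, ← ENNReal.rpow_natCast, ← ENNReal.rpow_mul,
    ← ENNReal.rpow_mul, hk]
  have hm' : (m : ℝ) ≠ 0 := by exact_mod_cast hm.ne'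
  have hl' : (l : ℝ) ≠ 0 := by exact_mod_cast hl.ne'
  congr 2
  · field_simp
  · push_cast
    field_simp

end Vale.Agent.P298.H475
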