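import Mathlib
import Vale.Agent.P298.H379.Geo

/-!
P298, block KUM (helper475): the square cover with large centres is smooth (row RED4').
-/

namespace Vale.Agent.P298.H475

open Filter Topology Metric MeasureTheory Set Vale.Agent.P298 Vale.Agent.P298.H379
open scoped ENNReal NNReal

lemma differentiable_ev {d e : ℕ} (h : Q d e) : Differentiable ℂ (ev h) := by
  unfold ev
  fun_prop

lemma norm_ev_le {d e : ℕ} {B : ℝ} (h : Q d e) (hB : ∑ α, ‖h α‖ ≤ B) (x : Fin 3 → ℂ) :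
    ‖ev h x‖ ≤ B * (1 + ‖x‖) ^ e := by
  unfold ev
  refine (norm_sum_le _ _).trans ?_
  have h1 : ∀ α : Mon d e, ‖h α * ∏ i, x i ^ (α.1 i : ℕ)‖ ≤ ‖h α‖ * (1 + ‖x‖) ^ e := by
    intro α
    rw [norm_mul, norm_prod]
    refine mul_le_mul_of_nonneg_left ?_ (norm_nonneg _)
    have h2 : ∀ i, ‖x i ^ (α.1 i : ℕ)‖ ≤ (1 + ‖x‖) ^ (α.1 i : ℕ) := by
      intro i
      rw [norm_pow]
      exact pow_le_pow_left₀ (norm_nonneg _) ((norm_le_pi_norm x i).trans (by linarith)) _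
    calc ∏ i, ‖x i ^ (α.1 i : ℕ)‖ ≤ ∏ i, (1 + ‖x‖) ^ (α.1 i : ℕ) :=
          Finset.prod_le_prod (fun i _ => norm_nonneg _) fun i _ => h2 i
      _ = (1 + ‖x‖) ^ (∑ i, (α.1 i : ℕ)) := by rw [Finset.prod_pow_eq_pow_sum]
      _ ≤ (1 + ‖x‖) ^ e := by
          refine pow_le_pow_right₀ (by linarith [norm_nonneg x]) ?_
          rw [Fin.sum_univ_three]
          exact α.2.1
  refine (Finset.sum_le_sum fun α _ => h1 α).trans ?_
  rw [← Finset.sum_mul]
  exact mul_le_mul_of_nonneg_right hB (by positivity)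

/-- Cauchy's estimate for partial derivatives. -/
lemma norm_pd_le {f : (Fin 3 → ℂ) → ℂ} (hf : Differentiable ℂ f) (j : Fin 3) (x : Fin 3 → ℂ)
    {ρ M : ℝ} (hρ : 0 < ρ) (hM : ∀ y : Fin 3 → ℂ, ‖y‖ ≤ ‖x‖ + ρ → ‖f y‖ ≤ M) :
    ‖pd j f x‖ ≤ M / ρ := by
  have h1 : HasDerivAt (fun z : ℂ => f (x + z • Pi.single j 1)) (pd j f x) 0 := by
    have h2 : HasDerivAt (fun z : ℂ => x + z • (Pi.single j 1 : Fin 3 → ℂ))
        (Pi.single j 1) 0 := by
      simpa using ((hasDerivAt_id (0 : ℂ)).smul_const (Pi.single j 1 : Fin 3 → ℂ)).const_add x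
    have h3 := (hf (x + (0 : ℂ) • (Pi.single j 1 : Fin 3 → ℂ))).hasFDerivAt.comp_hasDerivAt
      (0 : ℂ) h2
    rw [zero_smul, add_zero] at h3
    exact h3
  rw [← h1.deriv]
  have h4 : DiffContOnCl ℂ (fun z : ℂ => f (x + z • Pi.single j 1)) (ball 0 ρ) := by
    refine Differentiable.diffContOnCl ?_
    exact hf.comp (by fun_prop)
  refine Complex.norm_deriv_le_of_forall_mem_sphere_norm_le hρ h4 fun z hz => hM _ ?_
  refine (norm_add_le _ _).trans ?_
  have h5 : ‖z‖ = ρ := by simpa using hz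
  rw [norm_smul, h5]
  have h6 : ‖(Pi.single j 1 : Fin 3 → ℂ)‖ ≤ 1 := by
    rw [pi_norm_le_iff_of_nonneg (by norm_num)]
    intro i
    by_cases hi : i = j
    · subst hi; simp
    · simp [Pi.single_eq_of_ne hi]
  nlinarith

lemma norm_pd_ev_le {d e : ℕ} {B : ℝ} (h : Q d (e + 1)) (hB : ∑ α, ‖h α‖ ≤ B) (j : Fin 3)
    (x : Fin 3 → ℂ) : ‖pd j (ev h) x‖ ≤ B * 2 ^ (e + 1) * (1 + ‖x‖) ^ e := by
  have hB0 : 0 ≤ B := (Finset.sum_nonneg fun α _ => norm_nonneg (h α)).trans hB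
  have h0 : 0 ≤ ‖x‖ := norm_nonneg x
  have h1 := norm_pd_le (differentiable_ev h) j x (ρ := 1 + ‖x‖)
    (M := B * (2 * (1 + ‖x‖)) ^ (e + 1)) (by linarith) (by
      intro y hy
      refine (norm_ev_le h hB y).trans ?_
      refine mul_le_mul_of_nonneg_left ?_ hB0
      exact pow_le_pow_left₀ (by positivity) (by linarith) _)
  refine h1.trans (le_of_eq ?_)
  rw [mul_pow, pow_succ (1 + ‖x‖), ]
  field_simp

/-- the diagonal form -/
noncomputable def dg (d : ℕ) (c : Fin 3 → ℂ) (x : Fin 3 → ℂ) : ℂ := ∑ i, c i * x i ^ d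

lemma pd_dg (d : ℕ) (c : Fin 3 → ℂ) (j : Fin 3) (x : Fin 3 → ℂ) :
    HasFDerivAt (𝕜 := ℂ) (dg d c) (∑ i, (c i * (d * x i ^ (d - 1))) •
      ContinuousLinearMap.proj (R := ℂ) (φ := fun _ : Fin 3 => ℂ) i) x ∧
    pd j (dg d c) x = c j * (d * x j ^ (d - 1)) := by
  have h1 : HasFDerivAt (𝕜 := ℂ) (dg d c) (∑ i, (c i * (d * x i ^ (d - 1))) •
      ContinuousLinearMap.proj (R := ℂ) (φ := fun _ : Fin 3 => ℂ) i) x := by
    unfold dg
    refine HasFDerivAt.fun_sum fun i _ => ?_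
    have h := ((hasFDerivAt_apply (𝕜 := ℂ) (F' := fun _ : Fin 3 => ℂ) i x).pow d).const_mul (c i)
    refine h.congr_fderiv ?_
    ext v
    simp
    ring
  refine ⟨h1, ?_⟩
  unfold pd
  rw [h1.fderiv]
  simp [Pi.single_apply]

lemma pd_add {f g : (Fin 3 → ℂ) → ℂ} (hf : Differentiable ℂ f) (hg : Differentiable ℂ g)
    (j : Fin 3) (x : Fin 3 → ℂ) : pd j (fun x => f x + g x) x = pd j f x + pd j g x := by
  unfold pd
  rw [fderiv_fun_add (hf x) (hg x)]
  rfl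

lemma differentiable_dg (d : ℕ) (c : Fin 3 → ℂ) : Differentiable ℂ (dg d c) := by
  unfold dg
  fun_prop

/-- real inequality: `n^(e+2) ≤ K₁ + K₂ (1 + n)^(e+1)` bounds `n`. -/
lemma bound_of_pow {n K₁ K₂ : ℝ} (e : ℕ) (h1 : 0 ≤ K₁) (h2 : 0 ≤ K₂)
    (h : n ^ (e + 2) ≤ K₁ + K₂ * (1 + n) ^ (e + 1)) : n ≤ 1 + K₁ + K₂ * 2 ^ (e + 1) := by
  by_contra hcon
  push Not at hcon
  have hn1 : 1 ≤ n := by
    have : 0 ≤ K₂ * 2 ^ (e + 1) := by positivity
    linarith
  have h3 : K₂ * (1 + n) ^ (e + 1) ≤ K₂ * (2 ^ (e + 1) * n ^ (e + 1)) := by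
    rw [← mul_pow]
    exact mul_le_mul_of_nonneg_left (pow_le_pow_left₀ (by linarith) (by linarith) _) h2
  have h4 : K₁ ≤ K₁ * n ^ (e + 1) := le_mul_of_one_le_right h1 (one_le_pow₀ hn1)
  have h5 : n ^ (e + 2) ≤ (K₁ + K₂ * 2 ^ (e + 1)) * n ^ (e + 1) := by
    calc n ^ (e + 2) ≤ K₁ + K₂ * (1 + n) ^ (e + 1) := h
      _ ≤ K₁ * n ^ (e + 1) + K₂ * (2 ^ (e + 1) * n ^ (e + 1)) := add_le_add h4 h3
      _ = _ := by ring
  rw [pow_succ, mul_comm] at h5
  have h6 : n ≤ K₁ + K₂ * 2 ^ (e + 1) := le_of_mul_le_mul_right h5 (by positivity)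
  linarith

/-- **Boundedness of the bad points.** -/
theorem bounded_bad {e : ℕ} (c : Fin 3 → ℂ) (hc : ∀ i, c i ≠ 0) {B δ : ℝ} (hB : 0 ≤ B)
    (hδ : 0 ≤ δ) (A : ℝ) :
    ∃ M : ℝ, ∀ a : Q (e + 2) (e + 1), ∑ α, ‖a α‖ ≤ B → ∀ s : ℂ, ‖s‖ ≤ δ → ∀ (y : Fin 3 → ℂ)
      (i : Fin 3), dg (e + 2) c y + ev a y = s →
      (∀ j ≠ i, ‖y j‖ ≤ A ∨ pd j (fun x => dg (e + 2) c x + ev a x) y = 0) → ‖y‖ ≤ M := by
  set A' : ℝ := |A| with hA'
  set cm : ℝ := ∑ i, ‖(c i)⁻¹‖ with hcm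
  set cM : ℝ := ∑ i, ‖c i‖ with hcM
  have hcm0 : 0 ≤ cm := Finset.sum_nonneg fun i _ => norm_nonneg _
  have hcM0 : 0 ≤ cM := Finset.sum_nonneg fun i _ => norm_nonneg _
  have hci : ∀ i, ‖(c i)⁻¹‖ ≤ cm := fun i =>
    Finset.single_le_sum (f := fun i => ‖(c i)⁻¹‖) (fun i _ => norm_nonneg _) (Finset.mem_univ i)
  have hci' : ∀ i, ‖c i‖ ≤ cM := fun i =>
    Finset.single_le_sum (f := fun i => ‖c i‖) (fun i _ => norm_nonneg _) (Finset.mem_univ i)
  set E : ℝ := cm * (B * 2 ^ (e + 1)) with hE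
  have hE0 : 0 ≤ E := by positivity
  set K₁ : ℝ := A' ^ (e + 2) + cm * (δ + 3 * (cM * A' ^ (e + 2))) with hK₁
  set K₂ : ℝ := E + cm * (B + 3 * (cM * E)) with hK₂
  have hK₁0 : 0 ≤ K₁ := by positivity
  have hK₂0 : 0 ≤ K₂ := by positivity
  refine ⟨1 + K₁ + K₂ * 2 ^ (e + 1), fun a ha s hs y i hy hj => ?_⟩
  set n := ‖y‖ with hn
  have hn0 : 0 ≤ n := norm_nonneg _
  -- the other coordinates
  have h1 : ∀ j ≠ i, ‖y j‖ ^ (e + 2) ≤ A' ^ (e + 2) + E * (1 + n) ^ (e + 1) := by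
    intro j hji
    rcases hj j hji with h | h
    · have h2 : ‖y j‖ ^ (e + 2) ≤ A' ^ (e + 2) :=
        pow_le_pow_left₀ (norm_nonneg _) (h.trans (le_abs_self A)) _
      have : 0 ≤ E * (1 + n) ^ (e + 1) := by positivity
      linarith
    · rw [pd_add (differentiable_dg _ c) (differentiable_ev a), (pd_dg _ c j y).2] at h
      have h2 : c j * (((e + 2 : ℕ) : ℂ) * y j ^ (e + 2 - 1)) = -pd j (ev a) y :=
        eq_neg_of_add_eq_zero_left h
      have h3 : ‖c j‖ * ((e + 2 : ℕ) * ‖y j‖ ^ (e + 1)) ≤ B * 2 ^ (e + 1) * (1 + n) ^ e := by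
        have h4 := congrArg norm h2
        rw [norm_mul, norm_mul, norm_pow, norm_neg, Complex.norm_natCast] at h4
        rw [show e + 2 - 1 = e + 1 from rfl] at h4
        rw [h4]
        exact norm_pd_ev_le a ha j y
      have h5 : ‖y j‖ ^ (e + 1) ≤ E * (1 + n) ^ e := by
        have h6 : ‖c j‖ * ‖y j‖ ^ (e + 1) ≤ B * 2 ^ (e + 1) * (1 + n) ^ e := by
          refine le_trans ?_ h3
          refine mul_le_mul_of_nonneg_left ?_ (norm_nonneg _)
          refine le_mul_of_one_le_left (by positivity) ?_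
          push_cast
          have : (0 : ℝ) ≤ e := Nat.cast_nonneg e
          linarith
        calc ‖y j‖ ^ (e + 1) = ‖(c j)⁻¹‖ * (‖c j‖ * ‖y j‖ ^ (e + 1)) := by
              rw [norm_inv, ← mul_assoc, inv_mul_cancel₀ (norm_ne_zero_iff.2 (hc j)), one_mul]
          _ ≤ cm * (B * 2 ^ (e + 1) * (1 + n) ^ e) :=
              mul_le_mul (hci j) h6 (by positivity) hcm0
          _ = E * (1 + n) ^ e := by rw [hE]; ring
      calc ‖y j‖ ^ (e + 2) = ‖y j‖ ^ (e + 1) * ‖y j‖ := pow_succ _ _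
        _ ≤ (E * (1 + n) ^ e) * (1 + n) := by
            refine mul_le_mul h5 ?_ (norm_nonneg _) (by positivity)
            exact (norm_le_pi_norm y j).trans (by linarith)
        _ = E * (1 + n) ^ (e + 1) := by ring
        _ ≤ A' ^ (e + 2) + E * (1 + n) ^ (e + 1) := by
            have : 0 ≤ A' ^ (e + 2) := by positivity
            linarith
  -- the coordinate `i`
  have h2 : ‖y i‖ ^ (e + 2) ≤ cm * (δ + B * (1 + n) ^ (e + 1) +
      3 * (cM * (A' ^ (e + 2) + E * (1 + n) ^ (e + 1)))) := by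
    have h3 : c i * y i ^ (e + 2) = s - ev a y - ∑ j ∈ Finset.univ.erase i, c j * y j ^ (e + 2) := by
      have h4 : dg (e + 2) c y = c i * y i ^ (e + 2) +
          ∑ j ∈ Finset.univ.erase i, c j * y j ^ (e + 2) := by
        unfold dg
        rw [Finset.add_sum_erase Finset.univ (fun j => c j * y j ^ (e + 2)) (Finset.mem_univ i)]
      rw [h4] at hy
      linear_combination hy
    have h4 : ‖∑ j ∈ Finset.univ.erase i, c j * y j ^ (e + 2)‖ ≤
        3 * (cM * (A' ^ (e + 2) + E * (1 + n) ^ (e + 1))) := by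
      refine (norm_sum_le _ _).trans ?_
      have h5 : ∀ j ∈ Finset.univ.erase i, ‖c j * y j ^ (e + 2)‖ ≤
          cM * (A' ^ (e + 2) + E * (1 + n) ^ (e + 1)) := by
        intro j hj
        rw [norm_mul, norm_pow]
        exact mul_le_mul (hci' j) (h1 j (Finset.ne_of_mem_erase hj)) (by positivity) hcM0
      refine (Finset.sum_le_card_nsmul _ _ _ h5).trans ?_
      rw [nsmul_eq_mul]
      refine mul_le_mul_of_nonneg_right ?_ (by positivity)
      have : (Finset.univ.erase i : Finset (Fin 3)).card ≤ 3 := by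
        refine (Finset.card_erase_le).trans ?_
        simp
      exact_mod_cast this
    have h5 : ‖c i‖ * ‖y i‖ ^ (e + 2) ≤ δ + B * (1 + n) ^ (e + 1) +
        3 * (cM * (A' ^ (e + 2) + E * (1 + n) ^ (e + 1))) := by
      rw [← norm_pow, ← norm_mul, h3]
      refine (norm_sub_le _ _).trans (add_le_add ((norm_sub_le _ _).trans ?_) h4)
      exact add_le_add hs (norm_ev_le a ha y)
    calc ‖y i‖ ^ (e + 2) = ‖(c i)⁻¹‖ * (‖c i‖ * ‖y i‖ ^ (e + 2)) := by
          rw [norm_inv, ← mul_assoc, inv_mul_cancel₀ (norm_ne_zero_iff.2 (hc i)), one_mul]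
      _ ≤ _ := mul_le_mul (hci i) h5 (by positivity) hcm0
  -- all coordinates
  have h3 : ∀ j, ‖y j‖ ^ (e + 2) ≤ K₁ + K₂ * (1 + n) ^ (e + 1) := by
    intro j
    have hp : (0 : ℝ) ≤ (1 + n) ^ (e + 1) := by positivity
    by_cases hji : j = i
    · rw [hji]
      refine h2.trans ?_
      have e1 : K₁ + K₂ * (1 + n) ^ (e + 1) = A' ^ (e + 2) + E * (1 + n) ^ (e + 1) +
        cm * (δ + B * (1 + n) ^ (e + 1) +
          3 * (cM * (A' ^ (e + 2) + E * (1 + n) ^ (e + 1)))) := by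
        rw [hK₁, hK₂]; ring
      rw [e1]
      have : 0 ≤ A' ^ (e + 2) + E * (1 + n) ^ (e + 1) := by positivity
      linarith
    · refine (h1 j hji).trans ?_
      have e1 : K₁ + K₂ * (1 + n) ^ (e + 1) = A' ^ (e + 2) + E * (1 + n) ^ (e + 1) +
        cm * (δ + B * (1 + n) ^ (e + 1) +
          3 * (cM * (A' ^ (e + 2) + E * (1 + n) ^ (e + 1)))) := by
        rw [hK₁, hK₂]; ring
      rw [e1]
      have : 0 ≤ cm * (δ + B * (1 + n) ^ (e + 1) +
          3 * (cM * (A' ^ (e + 2) + E * (1 + n) ^ (e + 1)))) := by positivity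
      linarith
  have h4 : n ^ (e + 2) ≤ K₁ + K₂ * (1 + n) ^ (e + 1) := by
    obtain ⟨j, hj⟩ : ∃ j, ‖y j‖ = n := by
      obtain ⟨j, -, hj⟩ := Finset.exists_mem_eq_sup' (s := Finset.univ)
        (Finset.univ_nonempty (α := Fin 3)) (fun i => ‖y i‖)
      refine ⟨j, le_antisymm (norm_le_pi_norm y j) ?_⟩
      rw [hn, pi_norm_le_iff_of_nonneg (norm_nonneg _), ← hj]
      exact fun i => Finset.le_sup' (fun i => ‖y i‖) (Finset.mem_univ i)
    calc n ^ (e + 2) = ‖y j‖ ^ (e + 2) := by rw [hj]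
      _ ≤ _ := h3 j
  exact bound_of_pow e hK₁0 hK₂0 h4

/-- **Choice of the centres of the square cover.** -/
theorem exists_centres {e : ℕ} (c : Fin 3 → ℂ) (hc : ∀ i, c i ≠ 0) {B δ : ℝ} (hB : 0 ≤ B)
    (hδ : 0 ≤ δ) :
    ∃ b : Fin 3 → ℂ, ∀ a : Q (e + 2) (e + 1), ∑ α, ‖a α‖ ≤ B → ∀ s : ℂ, ‖s‖ ≤ δ →
      ∀ y : Fin 3 → ℂ, dg (e + 2) c y + ev a y = s →
      (∀ j, y j = b j ∨ pd j (fun x => dg (e + 2) c x + ev a x) y = 0) →
      ∀ j, pd j (fun x => dg (e + 2) c x + ev a x) y = 0 := by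
  choose M hM using fun A => bounded_bad (e := e) c hc hB hδ A
  obtain ⟨b0, hb0⟩ : ∃ b0 : ℂ, M 0 < ‖b0‖ := by
    refine ⟨((|M 0| + 1 : ℝ) : ℂ), ?_⟩
    rw [Complex.norm_real, Real.norm_eq_abs, abs_of_nonneg (by positivity)]
    linarith [le_abs_self (M 0)]
  obtain ⟨b1, hb1⟩ : ∃ b1 : ℂ, M ‖b0‖ < ‖b1‖ := by
    refine ⟨((|M ‖b0‖| + 1 : ℝ) : ℂ), ?_⟩
    rw [Complex.norm_real, Real.norm_eq_abs, abs_of_nonneg (by positivity)]
    linarith [le_abs_self (M ‖b0‖)]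
  obtain ⟨b2, hb2⟩ : ∃ b2 : ℂ, M (max ‖b0‖ ‖b1‖) < ‖b2‖ := by
    refine ⟨((|M (max ‖b0‖ ‖b1‖)| + 1 : ℝ) : ℂ), ?_⟩
    rw [Complex.norm_real, Real.norm_eq_abs, abs_of_nonneg (by positivity)]
    linarith [le_abs_self (M (max ‖b0‖ ‖b1‖))]
  refine ⟨![b0, b1, b2], fun a ha s hs y hy hj => ?_⟩
  set f : (Fin 3 → ℂ) → ℂ := fun x => dg (e + 2) c x + ev a x with hf
  have p2 : pd 2 f y = 0 := by
    rcases hj 2 with h | h
    · exfalso
      have h2 : y 2 = b2 := h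
      have := hM (max ‖b0‖ ‖b1‖) a ha s hs y 2 hy (by
        intro j hj2
        rcases hj j with h | h
        · left
          fin_cases j
          · have h3 : y 0 = b0 := h
            show ‖y 0‖ ≤ _
            rw [h3]; exact le_max_left _ _
          · have h3 : y 1 = b1 := h
            show ‖y 1‖ ≤ _
            rw [h3]; exact le_max_right _ _
          · exact absurd rfl hj2
        · exact Or.inr h)
      have h4 := norm_le_pi_norm y 2
      rw [h2] at h4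
      linarith
    · exact h
  have p1 : pd 1 f y = 0 := by
    rcases hj 1 with h | h
    · exfalso
      have h2 : y 1 = b1 := h
      have := hM ‖b0‖ a ha s hs y 1 hy (by
        intro j hj2
        rcases hj j with h | h
        · fin_cases j
          · left
            have h3 : y 0 = b0 := h
            show ‖y 0‖ ≤ _
            rw [h3]
          · exact absurd rfl hj2
          · exact Or.inr p2
        · exact Or.inr h)
      have h4 := norm_le_pi_norm y 1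
      rw [h2] at h4
      linarith
    · exact h
  have p0 : pd 0 f y = 0 := by
    rcases hj 0 with h | h
    · exfalso
      have h2 : y 0 = b0 := h
      have := hM 0 a ha s hs y 0 hy (by
        intro j hj2
        right
        fin_cases j
        · exact absurd rfl hj2
        · exact p1
        · exact p2)
      have h4 := norm_le_pi_norm y 0
      rw [h2] at h4
      linarith
    · exact h
  intro j
  fin_cases j
  · exact p0
  · exact p1
  · exact p2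

end Vale.Agent.P298.H475
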