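import Vale.Agent.P298.H475.Cov
import Vale.Agent.P298.H475.Bad
import Vale.Agent.P298.H412.Defs

/-!
P298, block KUM (helper475): the estimates (R) and (P2) for all exponents in `KK d e` follow from
the estimates for `m`-canonical forms by the square cover `x_i = b_i + X_i ^ 2`.
-/

namespace Vale.Agent.P298.H475

open Filter Topology Metric MeasureTheory Set Vale.Agent.P298 Vale.Agent.P298.H379
  Vale.Agent.P298.H412
open scoped ENNReal NNReal

/-! ### Coefficient vectors of polynomials -/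

/-- the exponent as a finitely supported function -/
noncomputable def fs {D e : ℕ} (α : Mon D e) : Fin 3 →₀ ℕ :=
  Finsupp.equivFunOnFinite.symm fun i => (α.1 i : ℕ)

lemma fs_apply {D e : ℕ} (α : Mon D e) (i : Fin 3) : fs α i = (α.1 i : ℕ) := rfl

lemma fs_injective {D e : ℕ} : Function.Injective (fs (D := D) (e := e)) := by
  intro α β h
  apply Subtype.ext
  funext i
  apply Fin.ext
  have := DFunLike.congr_fun h i
  simpa [fs_apply] using this

lemma exists_Q {D e : ℕ} (heD : e < D) (P : MvPolynomial (Fin 3) ℂ) (hP : P.totalDegree ≤ e) :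
    ∃ q : Q D e, ∀ x, ev q x = MvPolynomial.eval x P := by
  refine ⟨fun α => P.coeff (fs α), fun x => ?_⟩
  rw [MvPolynomial.eval_eq']
  unfold ev
  have h1 : ∑ α : Mon D e, P.coeff (fs α) * ∏ i, x i ^ (α.1 i : ℕ) =
      ∑ β ∈ (Finset.univ : Finset (Mon D e)).map ⟨fs, fs_injective⟩,
        P.coeff β * ∏ i, x i ^ β i := by
    rw [Finset.sum_map]
    rfl
  rw [h1]
  symm
  refine Finset.sum_subset ?_ ?_
  · intro β hβ
    have h2 : β 0 + β 1 + β 2 ≤ e := by
      have h3 := (MvPolynomial.le_totalDegree hβ).trans hP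
      rw [Finsupp.sum_fintype _ _ (by intro; rfl), Fin.sum_univ_three] at h3
      exact h3
    rw [Finset.mem_map]
    refine ⟨⟨fun i => ⟨β i, ?_⟩, ?_⟩, Finset.mem_univ _, ?_⟩
    · fin_cases i <;> simp <;> omega
    · simp only
      omega
    · ext i
      rfl
  · intro β _ hβ
    rw [MvPolynomial.notMem_support_iff.1 hβ, zero_mul]

lemma ev_add {D e : ℕ} (g h : Q D e) (x : Fin 3 → ℂ) : ev (g + h) x = ev g x + ev h x := by
  unfold ev
  simp only [Pi.add_apply, add_mul, Finset.sum_add_distrib]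

lemma ev_smul {D e : ℕ} (c : ℂ) (h : Q D e) (x : Fin 3 → ℂ) : ev (c • h) x = c * ev h x := by
  unfold ev
  rw [Finset.mul_sum]
  refine Finset.sum_congr rfl fun α _ => ?_
  rw [Pi.smul_apply, smul_eq_mul, mul_assoc]

lemma ev_zero {D e : ℕ} (x : Fin 3 → ℂ) : ev (0 : Q D e) x = 0 := by
  unfold ev
  simp

lemma ev_sum {D e : ℕ} {ι : Type*} (s : Finset ι) (g : ι → Q D e) (x : Fin 3 → ℂ) :
    ev (∑ i ∈ s, g i) x = ∑ i ∈ s, ev (g i) x := by
  classical
  induction s using Finset.induction_on with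
  | empty => simp [ev_zero]
  | insert i s hi ih => rw [Finset.sum_insert hi, Finset.sum_insert hi, ev_add, ih]

/-! ### The lower terms of the covering family -/

open MvPolynomial in
lemma totalDegree_sq (b : ℂ) (i : Fin 3) : (C b + X i ^ 2 : MvPolynomial (Fin 3) ℂ).totalDegree ≤ 2 := by
  refine (totalDegree_add _ _).trans (max_le ?_ ?_)
  · simp
  · simp

open MvPolynomial in
lemma totalDegree_sq_pow (b : ℂ) (i : Fin 3) (n : ℕ) :
    ((C b + X i ^ 2) ^ n : MvPolynomial (Fin 3) ℂ).totalDegree ≤ 2 * n := by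
  refine (totalDegree_pow _ _).trans ?_
  rw [mul_comm]
  exact Nat.mul_le_mul_right _ (totalDegree_sq b i)

open MvPolynomial in
lemma totalDegree_sq_sub (b : ℂ) (i : Fin 3) (n : ℕ) :
    ((C b + X i ^ 2) ^ (n + 1) - X i ^ (2 * (n + 1)) : MvPolynomial (Fin 3) ℂ).totalDegree ≤
      2 * n := by
  induction n with
  | zero => simp
  | succ n ih =>
    have h1 : ((C b + X i ^ 2) ^ (n + 1 + 1) - X i ^ (2 * (n + 1 + 1)) : MvPolynomial (Fin 3) ℂ) =
        C b * (C b + X i ^ 2) ^ (n + 1) + X i ^ 2 *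
          ((C b + X i ^ 2) ^ (n + 1) - X i ^ (2 * (n + 1))) := by ring
    rw [h1]
    refine (totalDegree_add _ _).trans (max_le ?_ ?_)
    · refine (totalDegree_mul _ _).trans ?_
      have := totalDegree_sq_pow b i (n + 1)
      simp only [totalDegree_C, zero_add]
      omega
    · refine (totalDegree_mul _ _).trans ?_
      have h2 : (X i ^ 2 : MvPolynomial (Fin 3) ℂ).totalDegree = 2 := by simp
      rw [h2]
      omega

open MvPolynomial in
lemma totalDegree_sq_prod {d e : ℕ} (b : Fin 3 → ℂ) (α : Mon d e) :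
    (∏ i, (C (b i) + X i ^ 2) ^ (α.1 i : ℕ) : MvPolynomial (Fin 3) ℂ).totalDegree ≤ 2 * e := by
  refine (totalDegree_finsetProd _ _).trans ?_
  calc ∑ i, ((C (b i) + X i ^ 2) ^ (α.1 i : ℕ) : MvPolynomial (Fin 3) ℂ).totalDegree
      ≤ ∑ i : Fin 3, 2 * (α.1 i : ℕ) := Finset.sum_le_sum fun i _ => totalDegree_sq_pow _ _ _
    _ = 2 * ∑ i : Fin 3, (α.1 i : ℕ) := by rw [Finset.mul_sum]
    _ ≤ 2 * e := by
        rw [Fin.sum_univ_three]
        exact Nat.mul_le_mul_left _ α.2.1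

/-- the lower terms of the covering family -/
lemma exists_lower {d : ℕ} (hd : 1 ≤ d) (c b : Fin 3 → ℂ) :
    ∃ (q0 : Q (2 * d) (2 * d - 1)) (q : Mon d (d - 1) → Q (2 * d) (2 * d - 1)),
      ∀ (a : Q d (d - 1)) (x : Fin 3 → ℂ),
        ∑ i, c i * x i ^ (2 * d) + ev (q0 + ∑ α, a α • q α) x =
          ∑ i, c i * (sq3 b x i) ^ d + ev a (sq3 b x) := by
  obtain ⟨n, rfl⟩ : ∃ n, d = n + 1 := ⟨d - 1, by omega⟩
  have h1 : ∀ i : Fin 3, ∃ q : Q (2 * (n + 1)) (2 * (n + 1) - 1), ∀ x, ev q x =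
      (b i + x i ^ 2) ^ (n + 1) - x i ^ (2 * (n + 1)) := by
    intro i
    obtain ⟨q, hq⟩ := exists_Q (D := 2 * (n + 1)) (e := 2 * (n + 1) - 1) (by omega)
      ((MvPolynomial.C (b i) + MvPolynomial.X i ^ 2) ^ (n + 1) -
        MvPolynomial.X i ^ (2 * (n + 1))) ((totalDegree_sq_sub (b i) i n).trans (by omega))
    exact ⟨q, fun x => by rw [hq x]; simp⟩
  have h2 : ∀ α : Mon (n + 1) (n + 1 - 1), ∃ q : Q (2 * (n + 1)) (2 * (n + 1) - 1), ∀ x, ev q x =
      ∏ i, (b i + x i ^ 2) ^ (α.1 i : ℕ) := by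
    intro α
    obtain ⟨q, hq⟩ := exists_Q (D := 2 * (n + 1)) (e := 2 * (n + 1) - 1) (by omega)
      (∏ i, (MvPolynomial.C (b i) + MvPolynomial.X i ^ 2) ^ (α.1 i : ℕ))
        ((totalDegree_sq_prod b α).trans (by omega))
    exact ⟨q, fun x => by rw [hq x]; simp⟩
  choose qi hqi using h1
  choose qa hqa using h2
  refine ⟨∑ i, c i • qi i, qa, fun a x => ?_⟩
  rw [ev_add, ev_sum, ev_sum]
  simp only [ev_smul, hqi, hqa]
  have h3 : ev a (sq3 b x) = ∑ α, a α * ∏ i, (b i + x i ^ 2) ^ (α.1 i : ℕ) := rfl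
  rw [h3, ← add_assoc, ← Finset.sum_add_distrib]
  congr 1
  refine Finset.sum_congr rfl fun i _ => ?_
  unfold sq3
  ring

/-! ### The level sets meet a plane in a null set -/

lemma ae_ne {d : ℕ} (hd : 1 ≤ d) (c : Fin 3 → ℂ) (hc : ∀ i, c i ≠ 0) (a : Q d (d - 1)) (s z : ℂ) :
    ∀ᵐ p : ℂ × ℂ, ∑ i, c i * (pt p z i) ^ d + ev a (pt p z) ≠ s := by
  rw [ae_iff]
  set S : Set (ℂ × ℂ) := {p | ¬ (∑ i, c i * (pt p z i) ^ d + ev a (pt p z) ≠ s)} with hS
  have hcont : Continuous fun p : ℂ × ℂ => ∑ i, c i * (pt p z i) ^ d + ev a (pt p z) := by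
    have h1 : Continuous fun p : ℂ × ℂ => pt p z := by
      refine continuous_pi fun i => ?_
      fin_cases i
      · exact continuous_fst
      · exact continuous_snd
      · exact continuous_const
    have h2 : Continuous fun x : Fin 3 → ℂ => ∑ i, c i * x i ^ d + ev a x := by
      have := (differentiable_ev a).continuous
      fun_prop
    exact h2.comp h1
  have hSc : IsClosed S := by
    have : S = (fun p : ℂ × ℂ => ∑ i, c i * (pt p z i) ^ d + ev a (pt p z)) ⁻¹' {s} := by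
      ext p; simp [hS]
    rw [this]
    exact isClosed_singleton.preimage hcont
  rw [Measure.volume_eq_prod, Measure.measure_prod_null hSc.measurableSet]
  refine Eventually.of_forall fun x => ?_
  show volume (Prod.mk x ⁻¹' S) = 0
  set P : Polynomial ℂ := Polynomial.C (c 1) * Polynomial.X ^ d +
    ∑ α : Mon d (d - 1), Polynomial.C (a α * x ^ (α.1 0 : ℕ) * z ^ (α.1 2 : ℕ)) *
      Polynomial.X ^ (α.1 1 : ℕ) + Polynomial.C (c 0 * x ^ d + c 2 * z ^ d - s) with hP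
  have hP0 : P ≠ 0 := by
    intro h0
    have h1 : P.coeff d = c 1 := by
      rw [hP, Polynomial.coeff_add, Polynomial.coeff_add, Polynomial.finsetSum_coeff,
        Polynomial.coeff_C_mul, Polynomial.coeff_X_pow, if_pos rfl, mul_one,
        Finset.sum_eq_zero, add_zero, Polynomial.coeff_C, if_neg (by omega), add_zero]
      intro α _
      have h2 := (α.1 1).2
      rw [Polynomial.coeff_C_mul, Polynomial.coeff_X_pow, if_neg (by omega), mul_zero]
    rw [h0, Polynomial.coeff_zero] at h1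
    exact hc 1 h1.symm
  have h1 : Prod.mk x ⁻¹' S ⊆ {w | P.IsRoot w} := by
    intro w hw
    have h2 : ∑ i, c i * (pt (x, w) z i) ^ d + ev a (pt (x, w) z) = s := by
      have h4 : (x, w) ∈ S := hw
      simpa [hS] using h4
    have h3 : P.eval w = ∑ i, c i * (pt (x, w) z i) ^ d + ev a (pt (x, w) z) - s := by
      rw [hP, Fin.sum_univ_three]
      unfold ev
      simp only [pt, Polynomial.eval_add, Polynomial.eval_mul, Polynomial.eval_C,
        Polynomial.eval_pow, Polynomial.eval_X, Polynomial.eval_finsetSum, Fin.prod_univ_three,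
        Matrix.cons_val_zero, Matrix.cons_val_one, Matrix.cons_val]
      have h5 : ∀ α : Mon d (d - 1), a α * x ^ (α.1 0 : ℕ) * z ^ (α.1 2 : ℕ) * w ^ (α.1 1 : ℕ) =
          a α * (x ^ (α.1 0 : ℕ) * w ^ (α.1 1 : ℕ) * z ^ (α.1 2 : ℕ)) := by intro α; ring
      simp only [h5]
      ring
    show P.eval w = 0
    rw [h3, h2, sub_self]
  exact measure_mono_null h1 ((Polynomial.finite_setOfPred_isRoot hP0).measure_zero _)

/-! ### The covering section -/

/-- the homogeneous form of degree `2e` which is `h (b + X²)` in the affine chart -/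
noncomputable def Hh {d e : ℕ} (b : Fin 3 → ℂ) (h : ℂ → Q d e) (p : ℂ × (Fin 4 → ℂ)) : ℂ :=
  ∑ α : Mon d e, h p.1 α * (p.2 0 ^ (2 * (e - (α.1 0 + α.1 1 + α.1 2 : ℕ))) *
    ∏ i : Fin 3, (b i * p.2 0 ^ 2 + p.2 i.succ ^ 2) ^ (α.1 i : ℕ))

lemma Hh_hom {d e : ℕ} (b : Fin 3 → ℂ) (h : ℂ → Q d e) (t c : ℂ) (z : Fin 4 → ℂ) :
    Hh b h (t, c • z) = c ^ (2 * e) * Hh b h (t, z) := by
  unfold Hh
  rw [Finset.mul_sum]
  refine Finset.sum_congr rfl fun α _ => ?_
  simp only [Pi.smul_apply, smul_eq_mul]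
  have h1 : ∀ i : Fin 3, (b i * (c * z 0) ^ 2 + (c * z i.succ) ^ 2) ^ (α.1 i : ℕ) =
      c ^ (2 * (α.1 i : ℕ)) * (b i * z 0 ^ 2 + z i.succ ^ 2) ^ (α.1 i : ℕ) := by
    intro i
    rw [pow_mul, ← mul_pow]
    congr 1
    ring
  simp only [h1, Fin.prod_univ_three]
  have h2 : 2 * e = 2 * (e - (α.1 0 + α.1 1 + α.1 2 : ℕ)) + (2 * (α.1 0 : ℕ) + 2 * (α.1 1 : ℕ) +
      2 * (α.1 2 : ℕ)) := by
    have := α.2.1
    omega
  conv_rhs => rw [h2]
  rw [mul_pow, pow_add, pow_add, pow_add]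
  ring

lemma Hh_an {d e : ℕ} (b : Fin 3 → ℂ) {h : ℂ → Q d e} {D : Set ℂ} (hD : IsOpen D)
    (hh : DifferentiableOn ℂ h D) : AnalyticOnNhd ℂ (Hh b h) (D ×ˢ univ) := by
  intro p hp
  unfold Hh
  refine Finset.analyticAt_fun_sum _ fun α _ => ?_
  have h1 : AnalyticAt ℂ (fun t => h t α) p.1 :=
    ((differentiableOn_pi.1 hh α).analyticOnNhd hD) p.1 hp.1
  have h2 : AnalyticAt ℂ (fun p : ℂ × (Fin 4 → ℂ) => h p.1 α) p :=
    AnalyticAt.fun_comp (f := fun p : ℂ × (Fin 4 → ℂ) => p.1) (g := fun t => h t α) h1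
      analyticAt_fst
  have h3 : ∀ i : Fin 4, AnalyticAt ℂ (fun p : ℂ × (Fin 4 → ℂ) => p.2 i) p := by
    intro i
    exact ((ContinuousLinearMap.proj (R := ℂ) (φ := fun _ : Fin 4 => ℂ) i).comp
      (ContinuousLinearMap.snd ℂ ℂ (Fin 4 → ℂ))).analyticAt p
  refine h2.mul (((h3 0).pow _).mul ?_)
  refine Finset.analyticAt_fun_prod _ fun i _ => ?_
  exact ((analyticAt_const.mul ((h3 0).pow 2)).add ((h3 i.succ).pow 2)).pow _

lemma Hh_affine {d e : ℕ} (b : Fin 3 → ℂ) (h : ℂ → Q d e) (t : ℂ) (x : Fin 3 → ℂ) :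
    Hh b h (t, Fin.cons 1 x) = ev (h t) (sq3 b x) := by
  unfold Hh ev sq3
  refine Finset.sum_congr rfl fun α _ => ?_
  simp

/-- the covering section -/
noncomputable def HK {d e : ℕ} (b : Fin 3 → ℂ) (h : ℂ → Q d e) (l m N : ℕ)
    (p : ℂ × (Fin 4 → ℂ)) : ℂ :=
  Hh b h p ^ l * (p.2 1 * p.2 2 * p.2 3) ^ m * p.2 0 ^ N

lemma HK_homFam {d e : ℕ} (b : Fin 3 → ℂ) {h : ℂ → Q d e} {D : Set ℂ} (hD : IsOpen D)
    (hh : DifferentiableOn ℂ h D) (l m N n : ℕ) (hn : n = 2 * e * l + 3 * m + N) :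
    HomFam D n (HK b h l m N) := by
  constructor
  · intro p hp
    have h3 : ∀ i : Fin 4, AnalyticAt ℂ (fun p : ℂ × (Fin 4 → ℂ) => p.2 i) p := by
      intro i
      exact ((ContinuousLinearMap.proj (R := ℂ) (φ := fun _ : Fin 4 => ℂ) i).comp
        (ContinuousLinearMap.snd ℂ ℂ (Fin 4 → ℂ))).analyticAt p
    unfold HK
    exact (((Hh_an b hD hh p hp).pow l).mul ((((h3 1).mul (h3 2)).mul (h3 3)).pow m)).mul
      ((h3 0).pow N)
  · intro t _ c z
    unfold HK
    rw [Hh_hom, hn]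
    simp only [Pi.smul_apply, smul_eq_mul]
    rw [mul_pow, ← pow_mul]
    ring

/-! ### The covering family -/

theorem cover {d e : ℕ} {R δ : ℝ} (F : PFam d R δ) {k : ℝ} (hk : k ∈ KK d e) {s : ℂ}
    (hs0 : s ≠ 0) (hsδ : ‖s‖ < δ) {t₀ : ℂ} {r : ℝ} (hsub : closedBall t₀ r ⊆ ball 0 R)
    (h : ℂ → Q d e) (hh : DifferentiableOn ℂ h (ball t₀ r)) :
    ∃ (SF : SFam (2 * d) (ball t₀ r)) (m : ℕ) (H : ℂ × (Fin 4 → ℂ) → ℂ), 1 ≤ m ∧
      HomFam (ball t₀ r) (m * (2 * d - 4)) H ∧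
      ∀ t ∈ ball t₀ r, F.N k t s (h t) = 8 * SF.N m H t := by
  obtain ⟨hk1, ⟨q, hq⟩, -, hk3⟩ := hk
  have hd := F.hd
  -- the exponents
  have hq0 : 0 < q := by
    have : (0 : ℝ) < q := by rw [hq]; linarith
    exact_mod_cast this
  set m : ℕ := q.num.toNat with hm
  set l : ℕ := q.den with hl
  have hl0 : 0 < l := q.den_pos
  have hnum : 0 < q.num := Rat.num_pos.2 hq0
  have hm0 : 0 < m := by rw [hm]; omega
  have hkml : k = m / l := by
    rw [← hq]
    have h1 : (q : ℝ) = (q.num : ℝ) / (q.den : ℝ) := by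
      exact_mod_cast (Rat.num_div_den q).symm
    have h2 : ((m : ℕ) : ℝ) = (q.num : ℝ) := by
      have : ((m : ℕ) : ℤ) = q.num := by rw [hm]; omega
      exact_mod_cast this
    rw [h1, h2]
  -- the degrees
  have hdeg : 2 * e * l + 3 * m ≤ m * (2 * d - 4) := by
    have h1 : (e : ℝ) * l ≤ m * (d - 7 / 2) := by
      have h2 : (0 : ℝ) < l := by exact_mod_cast hl0
      rw [hkml] at hk3
      calc (e : ℝ) * l ≤ (m / l * (d - 7 / 2)) * l := mul_le_mul_of_nonneg_right hk3 h2.le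
        _ = m * (d - 7 / 2) := by field_simp
    have h3 : ((2 * e * l + 3 * m : ℕ) : ℝ) ≤ ((m * (2 * d - 4) : ℕ) : ℝ) := by
      push_cast [Nat.cast_sub (show 4 ≤ 2 * d by omega)]
      nlinarith
    exact_mod_cast h3
  -- the bound of the coefficients
  obtain ⟨B, hB0, hB⟩ : ∃ B : ℝ, 0 ≤ B ∧ ∀ t ∈ ball t₀ r, ∑ α, ‖F.a t α‖ ≤ B := by
    have h1 : ContinuousOn (fun t => ∑ α, ‖F.a t α‖) (closedBall t₀ r) := by
      refine continuousOn_finsetSum _ fun α _ => ?_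
      exact (((differentiableOn_pi.1 F.holo α).continuousOn).mono hsub).norm
    obtain ⟨B, hB⟩ := (isCompact_closedBall t₀ r).bddAbove_image h1
    refine ⟨max B 0, le_max_right _ _, fun t ht => ?_⟩
    exact (hB ⟨t, ball_subset_closedBall ht, rfl⟩).trans (le_max_left _ _)
  obtain ⟨n, rfl⟩ : ∃ n, d = n + 2 := ⟨d - 2, by omega⟩
  obtain ⟨b, hb⟩ := exists_centres (e := n) F.c F.hc hB0 F.hδ.le
  obtain ⟨q0, qa, hlow⟩ := exists_lower (d := n + 2) (by omega) F.c b
  set a' : ℂ → Q (2 * (n + 2)) (2 * (n + 2) - 1) := fun t => q0 + ∑ α, F.a t α • qa α with ha'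
  have hval : ∀ t x, ∑ i, F.c i * x i ^ (2 * (n + 2)) + ev (a' t) x = F.f t (sq3 b x) :=
    fun t x => hlow (F.a t) x
  have hfdiff : ∀ t, Differentiable ℂ (F.f t) := by
    intro t
    exact (differentiable_dg (n + 2) F.c).add (differentiable_ev (F.a t))
  have hfun : ∀ t, (fun x : Fin 3 → ℂ => ∑ i, F.c i * x i ^ (2 * (n + 2)) + ev (a' t) x) =
      fun x => F.f t (sq3 b x) := fun t => funext fun x => hval t x
  refine ⟨⟨F.c, a', s, by omega, isOpen_ball, F.hc, ?_, ?_⟩, m,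
    HK b h l m (m * (2 * (n + 2) - 4) - (2 * e * l + 3 * m)), hm0, ?_, ?_⟩
  · -- holomorphy
    rw [differentiableOn_pi]
    intro β
    have h1 : ∀ α, DifferentiableOn ℂ (fun t => F.a t α) (ball t₀ r) := fun α =>
      (differentiableOn_pi.1 F.holo α).mono (ball_subset_closedBall.trans hsub)
    have h2 : (fun t => a' t β) = fun t => q0 β + ∑ α, F.a t α * qa α β := by
      funext t
      simp [ha', Finset.sum_apply]
    rw [h2]
    exact (differentiableOn_const _).add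
      (DifferentiableOn.fun_sum fun α _ => (h1 α).mul_const _)
  · -- smoothness
    intro t ht x hx
    rw [hval] at hx
    rw [hfun]
    by_contra hcon
    push Not at hcon
    have h1 : ∀ i, sq3 b x i = b i ∨ pd i (F.f t) (sq3 b x) = 0 := by
      intro i
      have h2 := hcon i
      rw [pd_sq3 (hfdiff t)] at h2
      rcases mul_eq_zero.1 h2 with h3 | h3
      · left
        have h4 : x i = 0 := by simpa using h3
        simp [sq3, h4]
      · exact Or.inr h3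
    have h2 := hb (F.a t) (hB t ht) s hsδ.le (sq3 b x) hx h1
    have ht' := (ball_subset_closedBall.trans hsub) ht
    have h3 := F.crit t ht' (sq3 b x) (by
      have : ∑ i, F.c i * sq3 b x i ^ (n + 2) + ev (F.a t) (sq3 b x) = s := hx
      rw [this]; exact hsδ) h2
    rw [h3] at hx
    apply hs0
    rw [← hx]
    show ∑ i, F.c i * (0 : Fin 3 → ℂ) i ^ (n + 2) + ev (F.a t) 0 = 0
    rw [F.zero t ht']
    simp
  · exact HK_homFam b isOpen_ball hh l m _ _ (by omega)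
  · -- the integrals
    intro t _
    have h1 : ∀ᵐ p : ℂ × ℂ, F.f t (pt p (b 2)) ≠ s :=
      ae_ne (d := n + 2) (by omega) F.c F.hc (F.a t) s (b 2)
    have h2 : F.N k t s (h t) = Nk (F.f t) s k (ev (h t)) := rfl
    rw [h2]
    unfold Nk
    rw [nu_cov (hfdiff t) b s _ h1]
    unfold SFam.N SFam.f
    simp only
    rw [hfun]
    congr 2
    funext X
    have h3 : HK b h l m (m * (2 * (n + 2) - 4) - (2 * e * l + 3 * m)) (t, Fin.cons 1 X) =
        ev (h t) (sq3 b X) ^ l * (X 0 * X 1 * X 2) ^ m := by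
      unfold HK
      rw [Hh_affine]
      have e1 : (Fin.cons 1 X : Fin 4 → ℂ) 1 = X 0 := rfl
      have e2 : (Fin.cons 1 X : Fin 4 → ℂ) 2 = X 1 := rfl
      have e3 : (Fin.cons 1 X : Fin 4 → ℂ) 3 = X 2 := rfl
      have e0 : (Fin.cons 1 X : Fin 4 → ℂ) 0 = 1 := rfl
      simp only [e0, e1, e2, e3, one_pow, mul_one]
    rw [h3, enorm_mul (ev (h t) (sq3 b X) ^ l), enorm_pow, enorm_pow,
      ENNReal.mul_rpow_of_nonneg _ _ (by positivity),
      ← ENNReal.rpow_natCast, ← ENNReal.rpow_natCast, ← ENNReal.rpow_natCast, ← ENNReal.rpow_mul,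
      ← ENNReal.rpow_mul, hkml]
    have hm' : (m : ℝ) ≠ 0 := by exact_mod_cast hm0.ne'
    have hl' : (l : ℝ) ≠ 0 := by exact_mod_cast hl0.ne'
    congr 2
    · field_simp
    · push_cast
      field_simp

/-! ### The final statements -/

/-- **(R)** for all exponents in `KK d e`. -/
theorem s1R (hS : S1AllR) {d : ℕ} {R δ : ℝ} (F : PFam d R δ) (e : ℕ) : S1R F (1 / 11) e := by
  intro k hk s hs0 hsδ r₂ hr₂ r hr h hh Λ hΛ t ht
  obtain ⟨r', h1, h2⟩ := exists_between hr.2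
  obtain ⟨SF, m, H, hm, hH, hN⟩ := cover F hk hs0 hsδ (t₀ := 0) (r := r')
    (closedBall_subset_ball (h2.trans_le hr₂)) h (hh.mono (ball_subset_ball h2.le))
  have hsub : closedBall (0 : ℂ) r ⊆ ball 0 r' := closedBall_subset_ball h1
  have h8 : (8 : ℝ≥0∞) ≠ 0 := by norm_num
  have h8' : (8 : ℝ≥0∞) ≠ ⊤ := by norm_num
  have key := hS SF m hm H hH 0 r hr.1 hsub (Λ / 8) (by
    intro t ht1 ht2
    have h3 : t ∈ ball (0 : ℂ) r' := hsub (by rw [mem_closedBall]; exact ht2)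
    rw [ENNReal.le_div_iff_mul_le (Or.inl h8) (Or.inl h8'), mul_comm, ← hN t h3]
    refine hΛ t ?_ ?_
    · rw [dist_zero_right] at ht1
      linarith
    · rwa [dist_zero_right] at ht2) t (by rw [mem_closedBall, dist_zero_right]; exact ht)
  have h3 : t ∈ ball (0 : ℂ) r' := hsub (by rw [mem_closedBall, dist_zero_right]; exact ht)
  rw [hN t h3]
  calc 8 * SF.N m H t ≤ 8 * (2 * (Λ / 8)) := by gcongr
    _ = 2 * (8 * (Λ / 8)) := by ring
    _ = 2 * Λ := by rw [ENNReal.mul_div_cancel h8 h8']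

/-- **(P2)** for all exponents in `KK d e`. -/
theorem s1P2 (hS : S1AllP2) {d : ℕ} {R δ : ℝ} (F : PFam d R δ) (e : ℕ) : S1P2 F 8000 e := by
  intro k hk s hs0 hsδ t₀ r hr hsub h hh
  have h1 : ∀ r' ∈ Ioo 0 r, ENNReal.ofReal (r' ^ 2) * F.N k t₀ s (h t₀) ≤
      ((8000 : ℝ≥0) : ℝ≥0∞) * ∫⁻ t in ball t₀ r, F.N k t s (h t) := by
    intro r' hr'
    obtain ⟨SF, m, H, hm, hH, hN⟩ := cover F hk hs0 hsδ (t₀ := t₀) (r := r')
      ((closedBall_subset_ball hr'.2).trans hsub) h (hh.mono (ball_subset_ball hr'.2.le))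
    have key := hS SF m hm H hH t₀ r' hr'.1 (subset_refl _)
    rw [hN t₀ (mem_ball_self hr'.1)]
    have h2 : ∫⁻ t in ball t₀ r', F.N k t s (h t) = 8 * ∫⁻ t in ball t₀ r', SF.N m H t := by
      rw [← lintegral_const_mul' _ _ (by norm_num)]
      exact setLIntegral_congr_fun measurableSet_ball fun t ht => hN t ht
    calc ENNReal.ofReal (r' ^ 2) * (8 * SF.N m H t₀) =
          8 * (ENNReal.ofReal (r' ^ 2) * SF.N m H t₀) := by ring
      _ ≤ 8 * (8000 * ∫⁻ t in ball t₀ r', SF.N m H t) := by gcongr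
      _ = 8000 * ∫⁻ t in ball t₀ r', F.N k t s (h t) := by rw [h2]; ring
      _ ≤ 8000 * ∫⁻ t in ball t₀ r, F.N k t s (h t) :=
          mul_le_mul_right (lintegral_mono_set (ball_subset_ball hr'.2.le)) _
      _ = _ := by norm_cast
  have h2 : Tendsto (fun r' : ℝ => ENNReal.ofReal (r' ^ 2) * F.N k t₀ s (h t₀)) (𝓝[<] r)
      (𝓝 (ENNReal.ofReal (r ^ 2) * F.N k t₀ s (h t₀))) := by
    refine ENNReal.Tendsto.mul_const ?_ (Or.inl ?_)
    · have h3 : Continuous fun r' : ℝ => ENNReal.ofReal (r' ^ 2) := by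
        exact ENNReal.continuous_ofReal.comp (by fun_prop)
      exact (h3.tendsto r).mono_left nhdsWithin_le_nhds
    · rw [Ne, ENNReal.ofReal_eq_zero, not_le]
      positivity
  have h4 : ∀ᶠ r' in 𝓝[<] r, r' ∈ Ioo 0 r := Ioo_mem_nhdsLT hr
  exact le_of_tendsto h2 (h4.mono fun r' hr' => h1 r' hr')

end Vale.Agent.P298.H475
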