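import Mathlib
import Vale.Agent.P298.H379.Geo

/-!
P298, block KUM (helper475): integration over the square cover `x_i = a_i + X_i ^ 2`.
-/

namespace Vale.Agent.P298.H475

open Filter Topology Metric MeasureTheory Set
open scoped ENNReal NNReal

/-- the squaring map of the base plane -/
def sqm (a b : ℂ) (P : ℂ × ℂ) : ℂ × ℂ := (a + P.1 ^ 2, b + P.2 ^ 2)

/-- derivative of the squaring map -/
noncomputable def sqm' (P : ℂ × ℂ) : ℂ × ℂ →L[ℂ] ℂ × ℂ :=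
  ((2 * P.1) • (ContinuousLinearMap.id ℂ ℂ)).prodMap ((2 * P.2) • (ContinuousLinearMap.id ℂ ℂ))

lemma hasFDerivAt_sqm (a b : ℂ) (P : ℂ × ℂ) : HasFDerivAt (𝕜 := ℂ) (sqm a b) (sqm' P) P := by
  have h1 : HasFDerivAt (𝕜 := ℂ) (fun P : ℂ × ℂ => a + P.1 ^ 2)
      ((2 * P.1) • (ContinuousLinearMap.fst ℂ ℂ ℂ)) P := by
    have h := (hasFDerivAt_fst (𝕜 := ℂ) (E := ℂ) (F := ℂ) (p := P)).pow 2
    simpa using h.const_add a
  have h2 : HasFDerivAt (𝕜 := ℂ) (fun P : ℂ × ℂ => b + P.2 ^ 2)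
      ((2 * P.2) • (ContinuousLinearMap.snd ℂ ℂ ℂ)) P := by
    have h := (hasFDerivAt_snd (𝕜 := ℂ) (E := ℂ) (F := ℂ) (p := P)).pow 2
    simpa using h.const_add b
  have h3 := h1.prodMk h2
  have h4 : sqm' P = ((2 * P.1) • ContinuousLinearMap.fst ℂ ℂ ℂ).prod
      ((2 * P.2) • ContinuousLinearMap.snd ℂ ℂ ℂ) := by
    ext <;> simp [sqm']
  rw [h4]
  exact h3

lemma det_mul (u : ℂ) :
    LinearMap.det (((u • (LinearMap.id : ℂ →ₗ[ℂ] ℂ))).restrictScalars ℝ) = ‖u‖ ^ 2 := by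
  rw [LinearMap.det_restrictScalars, Algebra.norm_complex_apply, LinearMap.det_smul,
    LinearMap.det_id, Complex.normSq_eq_norm_sq]
  simp

lemma det_sqm' (P : ℂ × ℂ) :
    |((sqm' P).restrictScalars ℝ).det| = 16 * (‖P.1‖ ^ 2 * ‖P.2‖ ^ 2) := by
  have h : (((sqm' P).restrictScalars ℝ : ℂ × ℂ →L[ℝ] ℂ × ℂ) : ℂ × ℂ →ₗ[ℝ] ℂ × ℂ) =
      (((2 * P.1) • (LinearMap.id : ℂ →ₗ[ℂ] ℂ)).restrictScalars ℝ).prodMap
        (((2 * P.2) • (LinearMap.id : ℂ →ₗ[ℂ] ℂ)).restrictScalars ℝ) := by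
    ext x <;> simp [sqm']
  rw [ContinuousLinearMap.det, h, LinearMap.det_prodMap, det_mul, det_mul, norm_mul, norm_mul]
  simp only [Complex.norm_ofNat]
  rw [abs_of_nonneg (by positivity)]
  ring

/-- the four pieces -/
def pc (ε₁ ε₂ : ℝ) : Set (ℂ × ℂ) := {P | 0 < ε₁ * P.1.re ∧ 0 < ε₂ * P.2.re}

lemma measurableSet_pc (ε₁ ε₂ : ℝ) : MeasurableSet (pc ε₁ ε₂) := by
  have : IsOpen (pc ε₁ ε₂) := by
    refine IsOpen.inter (s := {P : ℂ × ℂ | 0 < ε₁ * P.1.re}) (t := {P : ℂ × ℂ | 0 < ε₂ * P.2.re})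
      ?_ ?_
    · exact isOpen_lt continuous_const (by fun_prop)
    · exact isOpen_lt continuous_const (by fun_prop)
  exact this.measurableSet

lemma eq_of_sq {ε : ℝ} {z w : ℂ} (hz : 0 < ε * z.re) (hw : 0 < ε * w.re) (h : z ^ 2 = w ^ 2) :
    z = w := by
  rcases sq_eq_sq_iff_eq_or_eq_neg.1 h with h | h
  · exact h
  · rw [h, Complex.neg_re] at hz
    linarith [hz, hw]

lemma injOn_sqm (a b : ℂ) (ε₁ ε₂ : ℝ) : InjOn (sqm a b) (pc ε₁ ε₂) := by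
  rintro ⟨z, z'⟩ ⟨h1, h2⟩ ⟨w, w'⟩ ⟨h3, h4⟩ h
  simp only [sqm, Prod.mk.injEq, add_right_inj] at h
  exact Prod.ext (eq_of_sq h1 h3 h.1) (eq_of_sq h2 h4 h.2)

/-- the complex numbers with real square roots of the other sign are a null set -/
lemma null_line : volume {z : ℂ | z.im = 0} = 0 := by
  have h := Complex.volume_preserving_equiv_real_prod
  have h2 : {z : ℂ | z.im = 0} = Complex.measurableEquivRealProd ⁻¹' (univ ×ˢ {0}) := by
    ext z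
    simp [Complex.measurableEquivRealProd_apply]
  rw [h2, h.measure_preimage_equiv, Measure.volume_eq_prod, Measure.prod_prod]
  simp

lemma null_line' : volume {z : ℂ | z.re = 0} = 0 := by
  have h := Complex.volume_preserving_equiv_real_prod
  have h2 : {z : ℂ | z.re = 0} = Complex.measurableEquivRealProd ⁻¹' ({0} ×ˢ univ) := by
    ext z
    simp [Complex.measurableEquivRealProd_apply]
  rw [h2, h.measure_preimage_equiv, Measure.volume_eq_prod, Measure.prod_prod]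
  simp

lemma exists_sqrt {ε : ℝ} (hε : ε ≠ 0) {w : ℂ} (hw : w ∈ Complex.slitPlane) :
    ∃ z : ℂ, 0 < ε * z.re ∧ z ^ 2 = w := by
  have hw0 : w ≠ 0 := Complex.slitPlane_ne_zero hw
  obtain ⟨z, hz⟩ : ∃ z : ℂ, z ^ 2 = w := ⟨w ^ (1 / 2 : ℂ), by
    rw [← Complex.cpow_nat_mul]; simp⟩
  have hre : z.re ≠ 0 := by
    intro h0
    have : w = ((-(z.im ^ 2) : ℝ) : ℂ) := by
      rw [← hz, sq]
      apply Complex.ext
      · simp [h0, sq]
      · simp [h0, sq]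
    rw [this, Complex.ofReal_mem_slitPlane] at hw
    nlinarith [sq_nonneg z.im]
  rcases lt_or_gt_of_ne (mul_ne_zero hε hre) with h | h
  · exact ⟨-z, by simp; linarith, by rw [neg_sq, hz]⟩
  · exact ⟨z, h, hz⟩

lemma image_sqm (a b : ℂ) {ε₁ ε₂ : ℝ} (h1 : ε₁ ≠ 0) (h2 : ε₂ ≠ 0) {p : ℂ × ℂ}
    (hp : (p.1 - a).im ≠ 0) (hp' : (p.2 - b).im ≠ 0) : p ∈ sqm a b '' pc ε₁ ε₂ := by
  obtain ⟨z, hz, hz'⟩ := exists_sqrt h1 (Complex.mem_slitPlane_iff.2 (Or.inr hp))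
  obtain ⟨w, hw, hw'⟩ := exists_sqrt h2 (Complex.mem_slitPlane_iff.2 (Or.inr hp'))
  refine ⟨(z, w), ⟨hz, hw⟩, ?_⟩
  simp [sqm, hz', hw']

lemma null_compl (a b : ℂ) :
    volume {p : ℂ × ℂ | (p.1 - a).im = 0 ∨ (p.2 - b).im = 0} = 0 := by
  have h1 : volume {z : ℂ | (z - a).im = 0} = 0 := by
    have : {z : ℂ | (z - a).im = 0} = (fun z => z + (-a)) ⁻¹' {z : ℂ | z.im = 0} := by
      ext z; simp [sub_eq_add_neg]
    rw [this, measure_preimage_add_right, null_line]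
  have h2 : volume {z : ℂ | (z - b).im = 0} = 0 := by
    have : {z : ℂ | (z - b).im = 0} = (fun z => z + (-b)) ⁻¹' {z : ℂ | z.im = 0} := by
      ext z; simp [sub_eq_add_neg]
    rw [this, measure_preimage_add_right, null_line]
  have h3 : {p : ℂ × ℂ | (p.1 - a).im = 0 ∨ (p.2 - b).im = 0} ⊆
      ({z : ℂ | (z - a).im = 0} ×ˢ univ) ∪ (univ ×ˢ {z : ℂ | (z - b).im = 0}) := by
    rintro ⟨z, w⟩ (h | h)
    · exact Or.inl ⟨h, trivial⟩
    · exact Or.inr ⟨trivial, h⟩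
  refine measure_mono_null h3 (measure_union_null ?_ ?_)
  · rw [Measure.volume_eq_prod, Measure.prod_prod, h1, zero_mul]
  · rw [Measure.volume_eq_prod, Measure.prod_prod, h2, mul_zero]

instance : (volume : Measure (ℂ × ℂ)).IsAddHaarMeasure :=
  Measure.prod.instIsAddHaarMeasure (volume : Measure ℂ) (volume : Measure ℂ)

/-- one piece -/
lemma lintegral_pc (a b : ℂ) {ε₁ ε₂ : ℝ} (h1 : ε₁ ≠ 0) (h2 : ε₂ ≠ 0) (g : ℂ × ℂ → ℝ≥0∞) :
    ∫⁻ P in pc ε₁ ε₂, 16 * (‖P.1‖ₑ ^ 2 * ‖P.2‖ₑ ^ 2) * g (sqm a b P) = ∫⁻ p, g p := by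
  have h := lintegral_image_eq_lintegral_abs_det_fderiv_mul (volume : Measure (ℂ × ℂ))
    (measurableSet_pc ε₁ ε₂)
    (f' := fun P => (sqm' P).restrictScalars ℝ)
    (fun P _ => ((hasFDerivAt_sqm a b P).restrictScalars ℝ).hasFDerivWithinAt)
    (injOn_sqm a b ε₁ ε₂) g
  have h3 : (sqm a b '' pc ε₁ ε₂ : Set (ℂ × ℂ)) =ᵐ[volume] univ := by
    rw [eventuallyEq_univ, mem_ae_iff]
    refine measure_mono_null ?_ (null_compl a b)
    intro p hp
    by_contra hcon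
    simp only [mem_ofPred_eq, not_or] at hcon
    exact hp (image_sqm a b h1 h2 hcon.1 hcon.2)
  rw [setLIntegral_congr h3, setLIntegral_univ] at h
  rw [h]
  refine lintegral_congr fun P => ?_
  rw [det_sqm']
  congr 1
  rw [ENNReal.ofReal_mul (by norm_num), ENNReal.ofReal_mul (by positivity),
    ENNReal.ofReal_pow (norm_nonneg _), ENNReal.ofReal_pow (norm_nonneg _), ofReal_norm,
    ofReal_norm]
  norm_num

/-- **change of variables** -/
theorem lintegral_sqm (a b : ℂ) (g : ℂ × ℂ → ℝ≥0∞) :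
    ∫⁻ P : ℂ × ℂ, 16 * (‖P.1‖ₑ ^ 2 * ‖P.2‖ₑ ^ 2) * g (sqm a b P) = 4 * ∫⁻ p, g p := by
  set F : ℂ × ℂ → ℝ≥0∞ := fun P => 16 * (‖P.1‖ₑ ^ 2 * ‖P.2‖ₑ ^ 2) * g (sqm a b P) with hF
  have hn : volume {p : ℂ × ℂ | p.1.re = 0 ∨ p.2.re = 0} = 0 := by
    have h3 : {p : ℂ × ℂ | p.1.re = 0 ∨ p.2.re = 0} ⊆
        ({z : ℂ | z.re = 0} ×ˢ univ) ∪ (univ ×ˢ {z : ℂ | z.re = 0}) := by
      rintro ⟨z, w⟩ (h | h)
      · exact Or.inl ⟨h, trivial⟩
      · exact Or.inr ⟨trivial, h⟩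
    refine measure_mono_null h3 (measure_union_null ?_ ?_)
    · rw [Measure.volume_eq_prod, Measure.prod_prod, null_line', zero_mul]
    · rw [Measure.volume_eq_prod, Measure.prod_prod, null_line', mul_zero]
  have hu : ((pc 1 1 ∪ pc 1 (-1)) ∪ (pc (-1) 1 ∪ pc (-1) (-1)) : Set (ℂ × ℂ)) =ᵐ[volume] univ := by
    rw [eventuallyEq_univ, mem_ae_iff]
    refine measure_mono_null ?_ hn
    intro p hp
    by_contra hcon
    simp only [mem_ofPred_eq, not_or] at hcon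
    apply hp
    simp only [pc, mem_union, mem_ofPred_eq, one_mul, neg_mul, Left.neg_pos_iff]
    rcases lt_or_gt_of_ne hcon.1 with h1 | h1 <;> rcases lt_or_gt_of_ne hcon.2 with h2 | h2 <;>
      simp [h1, h2]
  have d1 : Disjoint (pc 1 1) (pc 1 (-1)) := by
    rw [Set.disjoint_left]
    rintro p ⟨h1, h2⟩ ⟨h3, h4⟩
    linarith
  have d2 : Disjoint (pc (-1) 1) (pc (-1) (-1)) := by
    rw [Set.disjoint_left]
    rintro p ⟨h1, h2⟩ ⟨h3, h4⟩
    linarith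
  have d3 : Disjoint (pc 1 1 ∪ pc 1 (-1)) (pc (-1) 1 ∪ pc (-1) (-1)) := by
    rw [Set.disjoint_left]
    rintro p (⟨h1, h2⟩ | ⟨h1, h2⟩) (⟨h3, h4⟩ | ⟨h3, h4⟩) <;> linarith
  rw [← setLIntegral_univ, ← setLIntegral_congr hu,
    lintegral_union ((measurableSet_pc _ _).union (measurableSet_pc _ _)) d3,
    lintegral_union (measurableSet_pc _ _) d1, lintegral_union (measurableSet_pc _ _) d2,
    lintegral_pc a b (by norm_num) (by norm_num), lintegral_pc a b (by norm_num) (by norm_num),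
    lintegral_pc a b (by norm_num) (by norm_num), lintegral_pc a b (by norm_num) (by norm_num)]
  ring

end Vale.Agent.P298.H475
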